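import Vale.Agent.P223.H441.Fin
import Vale.Agent.P223.H566.All

namespace Vale.Agent.Results.P223.SpinNonneg

open Vale.Agent.P223.J

/-- Let `M` be a closed connected oriented smooth manifold (`c` is an oriented smooth atlas), and
assume that some covering space of `M` (for instance `M` itself, or the universal covering) is
spin. Let `g` be any smooth Riemannian metric on `M`.
(1) If `n ≥ 4` and `Scal ≥ 0` everywhere then `‖M‖ = 0`.
(2) If `Scal > 0` everywhere then `‖M‖ = 0`, in all dimensions. -/
theorem result (n : ℕ) (M : Type) [TopologicalSpace M] [CompactSpace M] [T2Space M]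
    [ConnectedSpace M] (c : M → Ch n M) (hc : Atl c) (hS : ∃ g₀, Met c g₀ ∧ CovSpin c g₀)
    (g : M → Mtx n) (hg : Met c g) :
    (4 ≤ n → (∀ p, 0 ≤ scal (g p) (c p p)) → sv c = 0) ∧
      ((∀ p, 0 < scal (g p) (c p p)) → sv c = 0) := by
  obtain ⟨g₀, hg₀, h⟩ := hS
  exact Vale.Agent.P223.H441.sv_zero Vale.Agent.P223.H566.pair hc hg₀ h hg

end Vale.Agent.Results.P223.SpinNonneg
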